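import Vale.Agent.P030.H869.Join
import Vale.Agent.P030.H486.Wd

/-!
# P030, the prime 2: the adapted family on arbitrary 8-tuples

`rowTup` is the value of a row on a column given by an arbitrary 8-tuple of series at a cusp
(`rowVal` is the case of the literal groups).  The two extra tuples `t6`, `td` at `c1`.
-/

open PowerSeries

namespace Vale.Agent.P030.H869

open Vale.Agent.P030.T hiding cB
open Vale.Agent.P030.H486 (cB cD hm hm_apply valt sec nv bnd cst t6 td tab6 tabd entry_t6 entry_td)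

section general

variable (K : Type*) [Field K] [Algebra ℚ K]

/-- value of a row on the order `k` of an 8-tuple at the cusp `c` -/
noncomputable def rowTup (D : ℕ) (c : Fin 4) (k : ℕ) (tup : Fin 8 → K⟦X⟧)
    (P : Fin 8 → Polynomial K) : K :=
  ∑ j, coeff k (evP K D c (P j) * tup j)

theorem rowVal_eq_rowTup (D : ℕ) (x : K) (g : Gp) (k : ℕ) (P : Fin 8 → Polynomial K) :
    rowVal K D x g k P = rowTup K D g.cusp k (Tup K x g) P := rfl

/-- the row `P` through the rows `μ_i e_j` -/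
theorem rowTup_eq (D : ℕ) (c : Fin 4) (k : ℕ) (tup : Fin 8 → K⟦X⟧) (P : Fin 8 → Polynomial K) :
    rowTup K D c k tup P =
      ∑ q : Fin D × Fin 8, (∑ a : Fin D, (P q.2).coeff a * Cb K D a q.1) *
        coeff k ((mon D c q.1).map (algebraMap ℚ K) * tup q.2) := by
  unfold rowTup
  rw [Fintype.sum_prod_type, Finset.sum_comm]
  refine Finset.sum_congr rfl fun j _ => ?_
  rw [evP_eq, Finset.sum_mul, map_sum]
  refine Finset.sum_congr rfl fun i _ => ?_
  rw [mul_assoc, PowerSeries.coeff_C_mul]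

/-- the value of a rational section on a rational tuple -/
theorem rowTup_map (n : ℕ) (c : Fin 4) (k : ℕ) (tup : Fin 8 → ℚ⟦X⟧)
    (P : Fin 8 → Polynomial ℚ) :
    rowTup K (n + 1) c k (fun j => (tup j).map (algebraMap ℚ K))
      (fun j => (P j).map (algebraMap ℚ K)) = algebraMap ℚ K (coeff k (valt n P c tup)) := by
  unfold rowTup valt
  rw [map_sum, map_sum]
  refine Finset.sum_congr rfl fun j _ => ?_
  rw [evP_map, ← map_mul, PowerSeries.coeff_map]

omit [Algebra ℚ K] in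
theorem rowTup_add (D : ℕ) (c : Fin 4) (k : ℕ) (t1 t2 : Fin 8 → K⟦X⟧)
    (P : Fin 8 → Polynomial K) :
    rowTup K D c k (t1 + t2) P = rowTup K D c k t1 P + rowTup K D c k t2 P := by
  simp only [rowTup, Pi.add_apply, mul_add, map_add, Finset.sum_add_distrib]

omit [Algebra ℚ K] in
theorem rowTup_smul (D : ℕ) (c : Fin 4) (k : ℕ) (q : K) (t : Fin 8 → K⟦X⟧)
    (P : Fin 8 → Polynomial K) :
    rowTup K D c k (fun j => C q * t j) P = q * rowTup K D c k t P := by
  simp only [rowTup, Finset.mul_sum]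
  refine Finset.sum_congr rfl fun j _ => ?_
  rw [mul_left_comm, PowerSeries.coeff_C_mul]

end general

theorem rat_cast_eq (q : ℚ) : (algebraMap ℚ ℚ_[2] q) = (q : ℚ_[2]) := eq_ratCast _ _

theorem fam_low_eq (n : ℕ) (h tF tT : Fin (n + 1) → Polynomial ℚ_[2]) (i : Fin (n + 1))
    (ty : Fin 8) (hty : (ty : ℕ) < 6) : fam n h tF tT (i, ty) =
      fun j => (sec n (Polynomial.X ^ (i : ℕ)) ty j).map (algebraMap ℚ ℚ_[2]) := by
  have h6 : ty ≠ 6 := by rintro rfl; exact absurd hty (by decide)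
  have h7 : ty ≠ 7 := by rintro rfl; exact absurd hty (by decide)
  funext j
  simp only [fam, if_neg h6, if_neg h7]

theorem fam_six (n : ℕ) (h tF tT : Fin (n + 1) → Polynomial ℚ_[2]) (i : Fin (n + 1)) :
    fam n h tF tT (i, 6) = krow 6 (h i) (tF i) := by
  simp [fam]

theorem fam_seven (n : ℕ) (h tF tT : Fin (n + 1) → Polynomial ℚ_[2]) (i : Fin (n + 1)) :
    fam n h tF tT (i, 7) = krow 7 (h i) (tT i) := by
  have : (7 : Fin 8) ≠ 6 := by decide
  simp [fam]

/-- the entries of the polylogarithmic rows on `P_6` at `c1` -/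
theorem norm_fam_low_t6 (n : ℕ) (h tF tT : Fin (n + 1) → Polynomial ℚ_[2])
    (i : Fin (n + 1)) (ty : Fin 8) (hty : (ty : ℕ) < 6) (k : ℕ) :
    ‖rowTup ℚ_[2] (n + 1) 1 k (fun j => (t6 j).map (algebraMap ℚ ℚ_[2]))
      (fam n h tF tT (i, ty))‖ ≤ cst n k * bnd n i k (tab6 ty) := by
  rw [fam_low_eq n h tF tT i ty hty, rowTup_map, rat_cast_eq]
  exact entry_t6 (Nat.lt_succ_iff.1 i.2) ty hty

/-- the entries of the polylogarithmic rows on `P_7 - P_6` at `c1` -/
theorem norm_fam_low_td (n : ℕ) (h tF tT : Fin (n + 1) → Polynomial ℚ_[2])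
    (i : Fin (n + 1)) (ty : Fin 8) (hty : (ty : ℕ) < 6) (k : ℕ) :
    ‖rowTup ℚ_[2] (n + 1) 1 k (fun j => (td j).map (algebraMap ℚ ℚ_[2]))
      (fam n h tF tT (i, ty))‖ ≤ cst n k * bnd n i k (tabd ty) := by
  rw [fam_low_eq n h tF tT i ty hty, rowTup_map, rat_cast_eq]
  exact entry_td (Nat.lt_succ_iff.1 i.2) ty hty

/-- value of a K-row on a tuple -/
theorem rowTup_krow (D : ℕ) (c : Fin 4) (k : ℕ) (tup : Fin 8 → ℚ_[2]⟦X⟧) (j : Fin 8)
    (hj : j ≠ 0) (h t : Polynomial ℚ_[2]) :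
    rowTup ℚ_[2] D c k tup (krow j h t) =
      coeff k (evP ℚ_[2] D c h * tup j) - coeff k (evP ℚ_[2] D c t * tup 0) := by
  unfold rowTup
  have h0 : ∀ a ∈ (Finset.univ : Finset (Fin 8)), a ∉ ({j, 0} : Finset (Fin 8)) →
      coeff k (evP ℚ_[2] D c (krow j h t a) * tup a) = 0 := by
    intro a _ ha
    simp only [Finset.mem_insert, Finset.mem_singleton, not_or] at ha
    simp [krow, ha.1, ha.2, evP_zero]
  rw [← Finset.sum_subset (Finset.subset_univ {j, 0}) h0, Finset.sum_pair hj]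
  have e1 : krow j h t j = h := by simp [krow]
  have e2 : krow j h t 0 = -t := by simp [krow, hj.symm]
  rw [e1, e2, evP_neg, neg_mul, map_neg, sub_eq_add_neg]

/-- the K-rows do not see `t6`, `td` -/
theorem rowTup_krow_t6 (D : ℕ) (c : Fin 4) (k : ℕ) (j : Fin 8) (hj : j = 6 ∨ j = 7)
    (h t : Polynomial ℚ_[2]) :
    rowTup ℚ_[2] D c k (fun a => (t6 a).map (algebraMap ℚ ℚ_[2])) (krow j h t) = 0 := by
  rcases hj with rfl | rfl
  · rw [rowTup_krow D c k _ 6 (by decide)]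
    simp [t6]
  · rw [rowTup_krow D c k _ 7 (by decide)]
    simp [t6]

theorem rowTup_krow_td (D : ℕ) (c : Fin 4) (k : ℕ) (j : Fin 8) (hj : j = 6 ∨ j = 7)
    (h t : Polynomial ℚ_[2]) :
    rowTup ℚ_[2] D c k (fun a => (td a).map (algebraMap ℚ ℚ_[2])) (krow j h t) = 0 := by
  rcases hj with rfl | rfl
  · rw [rowTup_krow D c k _ 6 (by decide)]
    simp [td]
  · rw [rowTup_krow D c k _ 7 (by decide)]
    simp [td]

/-- the groups without K-part and without `1`-part are not seen by the K-rows -/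
theorem rowVal_krow (D : ℕ) (x : ℚ_[2]) (g : Gp) (k : ℕ) (j : Fin 8) (hj : j ≠ 0)
    (h t : Polynomial ℚ_[2]) :
    rowVal ℚ_[2] D x g k (krow j h t) =
      coeff k (evP ℚ_[2] D g.cusp h * Tup ℚ_[2] x g j) -
        coeff k (evP ℚ_[2] D g.cusp t * Tup ℚ_[2] x g 0) :=
  rowTup_krow D g.cusp k _ j hj h t

end Vale.Agent.P030.H869
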