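import Vale.Agent.P030.H869.Row

/-!
# P030, the row change: calculus of `evP`, and the end form at the prime 2

`evP D c` is linear, multiplicative for `(d1, d2)` with `D - 1 = d1 + d2`, and explicit on products
of powers of `S - 1`, `S - 1/2`, `S`.  End form `neg_val_le`: entry bounds `2 ^ (A r + B c)` for a
triangular family of rows bound the 2-adic valuation of the determinant of the frame.
-/

open PowerSeries

namespace Vale.Agent.P030.H869

open Vale.Agent.P030.T

section calculus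

variable {K : Type*} [Field K]

theorem evP_add (D : ℕ) (c : Fin 4) (h1 h2 : Polynomial K) :
    evP K D c (h1 + h2) = evP K D c h1 + evP K D c h2 := by
  simp only [evP, Polynomial.coeff_add, map_add, add_mul, Finset.sum_add_distrib]

theorem evP_zero (D : ℕ) (c : Fin 4) : evP K D c 0 = 0 := by
  simp [evP]

theorem evP_C_mul (D : ℕ) (c : Fin 4) (a : K) (h : Polynomial K) :
    evP K D c (Polynomial.C a * h) = C a * evP K D c h := by
  simp only [evP, Polynomial.coeff_C_mul, map_mul, Finset.mul_sum, mul_assoc]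

theorem evP_neg (D : ℕ) (c : Fin 4) (h : Polynomial K) :
    evP K D c (-h) = -evP K D c h := by
  simp [evP, Finset.sum_neg_distrib]

theorem evP_sub (D : ℕ) (c : Fin 4) (h1 h2 : Polynomial K) :
    evP K D c (h1 - h2) = evP K D c h1 - evP K D c h2 := by
  rw [sub_eq_add_neg, evP_add, evP_neg, sub_eq_add_neg]

theorem evP_sum {ι : Type*} (D : ℕ) (c : Fin 4) (s : Finset ι) (f : ι → Polynomial K) :
    evP K D c (∑ i ∈ s, f i) = ∑ i ∈ s, evP K D c (f i) := by
  classical
  induction s using Finset.induction_on with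
  | empty => simp [evP_zero]
  | insert a s ha ih => rw [Finset.sum_insert ha, Finset.sum_insert ha, evP_add, ih]

theorem evP_X_pow (D : ℕ) (c : Fin 4) (a : ℕ) (ha : a < D) :
    evP K D c (Polynomial.X ^ a) = SN K c ^ a * SD K c ^ (D - 1 - a) := by
  unfold evP
  rw [Finset.sum_eq_single a]
  · simp
  · intro b _ hb
    simp [Polynomial.coeff_X_pow, hb]
  · intro h
    exact absurd (Finset.mem_range.2 ha) h

theorem evP_X_pow_C (D : ℕ) (c : Fin 4) (a : ℕ) (ha : a < D) (q : K) :
    evP K D c (Polynomial.C q * Polynomial.X ^ a) = C q * (SN K c ^ a * SD K c ^ (D - 1 - a)) := by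
  rw [evP_C_mul, evP_X_pow D c a ha]

/-- induction principle: linear identities may be checked on the powers of `X` -/
theorem ext_lin {A : Type*} [AddCommGroup A] (n : ℕ) (f g : Polynomial K → A)
    (hf : ∀ p q, f (p + q) = f p + f q) (hg : ∀ p q, g (p + q) = g p + g q)
    (h : ∀ a ≤ n, ∀ q : K, f (Polynomial.C q * Polynomial.X ^ a) =
      g (Polynomial.C q * Polynomial.X ^ a))
    (p : Polynomial K) (hp : p.natDegree ≤ n) : f p = g p := by
  have hf0 : f 0 = 0 := by
    have := hf 0 0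
    rw [add_zero] at this
    exact left_eq_add.1 this
  have hg0 : g 0 = 0 := by
    have := hg 0 0
    rw [add_zero] at this
    exact left_eq_add.1 this
  have key : ∀ (s : Finset ℕ), (∀ a ∈ s, a ≤ n) →
      f (∑ a ∈ s, Polynomial.C (p.coeff a) * Polynomial.X ^ a) =
      g (∑ a ∈ s, Polynomial.C (p.coeff a) * Polynomial.X ^ a) := by
    intro s
    induction s using Finset.induction_on with
    | empty => intro _; simp [hf0, hg0]
    | insert a s ha ih =>
      intro hs
      rw [Finset.sum_insert ha, hf, hg, h a (hs a (Finset.mem_insert_self _ _)),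
        ih fun b hb => hs b (Finset.mem_insert_of_mem hb)]
  rw [p.as_sum_range_C_mul_X_pow' (Nat.lt_succ_of_le hp)]
  exact key _ fun a ha => Nat.lt_succ_iff.1 (Finset.mem_range.1 ha)

/-- multiplicativity -/
theorem evP_mul (d1 d2 : ℕ) (c : Fin 4) (h1 h2 : Polynomial K) (e1 : h1.natDegree ≤ d1)
    (e2 : h2.natDegree ≤ d2) :
    evP K (d1 + d2 + 1) c (h1 * h2) = evP K (d1 + 1) c h1 * evP K (d2 + 1) c h2 := by
  refine ext_lin d1 (fun p => evP K (d1 + d2 + 1) c (p * h2))
    (fun p => evP K (d1 + 1) c p * evP K (d2 + 1) c h2) ?_ ?_ ?_ h1 e1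
  · intro p q
    simp only [add_mul, evP_add]
  · intro p q
    simp only [add_mul, evP_add]
  · intro a ha q
    refine ext_lin d2 (fun p => evP K (d1 + d2 + 1) c (Polynomial.C q * Polynomial.X ^ a * p))
      (fun p => evP K (d1 + 1) c (Polynomial.C q * Polynomial.X ^ a) * evP K (d2 + 1) c p)
      ?_ ?_ ?_ h2 e2
    · intro p r
      simp only [mul_add, evP_add]
    · intro p r
      simp only [mul_add, evP_add]
    · intro b hb r
      have e : Polynomial.C q * Polynomial.X ^ a * (Polynomial.C r * Polynomial.X ^ b) =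
          Polynomial.C (q * r) * (Polynomial.X : Polynomial K) ^ (a + b) := by
        rw [Polynomial.C_mul, pow_add]; ring
      rw [e, evP_X_pow_C _ _ _ (by omega), evP_X_pow_C _ _ _ (by omega),
        evP_X_pow_C _ _ _ (by omega)]
      have e3 : d1 + d2 + 1 - 1 - (a + b) = (d1 + 1 - 1 - a) + (d2 + 1 - 1 - b) := by omega
      rw [e3, pow_add, pow_add, map_mul]
      ring

/-- polynomials of smaller degree -/
theorem evP_lift (d k : ℕ) (c : Fin 4) (h : Polynomial K) (e : h.natDegree ≤ d) :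
    evP K (d + k + 1) c h = evP K (d + 1) c h * SD K c ^ k := by
  have h1 := evP_mul d k c h 1 e (by simp)
  rw [mul_one] at h1
  rw [h1]
  congr 1
  have := evP_X_pow (K := K) (k + 1) c 0 (by omega)
  simpa using this

/-- powers of `S - r` -/
theorem evP_sub_C_pow (n : ℕ) (c : Fin 4) (r : K) :
    evP K (n + 1) c ((Polynomial.X - Polynomial.C r) ^ n) = (SN K c - C r * SD K c) ^ n := by
  induction n with
  | zero => simpa using evP_X_pow (K := K) 1 c 0 (by omega)
  | succ n ih =>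
    rw [pow_succ, pow_succ]
    have h1 := evP_mul n 1 c ((Polynomial.X - Polynomial.C r) ^ n) (Polynomial.X - Polynomial.C r)
      (by
        refine (Polynomial.natDegree_pow_le).trans ?_
        have := Polynomial.natDegree_X_sub_C_le r
        nlinarith) (Polynomial.natDegree_X_sub_C_le r)
    rw [h1, ih]
    congr 1
    rw [evP_sub]
    have h2 := evP_X_pow (K := K) 2 c 1 (by omega)
    have h3 := evP_X_pow_C (K := K) 2 c 0 (by omega) r
    simp only [pow_one, pow_zero, mul_one, one_mul] at h2 h3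
    rw [h2, h3]
    simp

/-- `S - 1/2` at the cusps (numerator) -/
noncomputable def SY (K : Type*) [Field K] (c : Fin 4) : K⟦X⟧ :=
  SN K c - C (1 / 2) * SD K c

/-- products of powers -/
theorem evP_prod [Algebra ℚ K] (D : ℕ) (c : Fin 4) (a b d : ℕ) (h : a + b + d < D) :
    evP K D c ((Polynomial.X - 1) ^ a * (Polynomial.X - Polynomial.C (1 / 2)) ^ b *
      Polynomial.X ^ d) =
      SM K c ^ a * SY K c ^ b * SN K c ^ d * SD K c ^ (D - 1 - (a + b + d)) := by
  obtain ⟨k, rfl⟩ : ∃ k, D = (a + b + d) + k + 1 := ⟨D - 1 - (a + b + d), by omega⟩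
  have ga : ((Polynomial.X - 1 : Polynomial K) ^ a).natDegree ≤ a := by
    refine (Polynomial.natDegree_pow_le).trans ?_
    have : (Polynomial.X - 1 : Polynomial K).natDegree ≤ 1 := by
      rw [← Polynomial.C_1]; exact Polynomial.natDegree_X_sub_C_le _
    nlinarith
  have gb : ((Polynomial.X - Polynomial.C (1 / 2) : Polynomial K) ^ b).natDegree ≤ b := by
    refine (Polynomial.natDegree_pow_le).trans ?_
    have : (Polynomial.X - Polynomial.C (1 / 2) : Polynomial K).natDegree ≤ 1 :=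
      Polynomial.natDegree_X_sub_C_le _
    nlinarith
  have gd : ((Polynomial.X : Polynomial K) ^ d).natDegree ≤ d := Polynomial.natDegree_X_pow_le d
  rw [evP_lift _ _ _ _ (by
    refine Polynomial.natDegree_mul_le.trans ?_
    have := Polynomial.natDegree_mul_le (p := (Polynomial.X - 1 : Polynomial K) ^ a)
      (q := (Polynomial.X - Polynomial.C (1 / 2)) ^ b)
    omega)]
  rw [evP_mul (a + b) d c _ _ (by
    refine Polynomial.natDegree_mul_le.trans ?_
    omega) gd, evP_mul a b c _ _ ga gb]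
  have h1 := evP_sub_C_pow (K := K) a c 1
  rw [Polynomial.C_1, map_one, one_mul, ← SM_eq] at h1
  rw [h1, evP_sub_C_pow]
  have h2 := evP_X_pow (K := K) (d + 1) c d (by omega)
  rw [h2]
  have h3 : a + b + d + k + 1 - 1 - (a + b + d) = k := by omega
  rw [h3]
  simp [SY]

theorem rowVal_add [Algebra ℚ K] (D : ℕ) (x : K) (g : Gp) (k : ℕ) (P Q : Fin 8 → Polynomial K) :
    rowVal K D x g k (P + Q) = rowVal K D x g k P + rowVal K D x g k Q := by
  simp only [rowVal, Pi.add_apply, evP_add, add_mul, map_add, Finset.sum_add_distrib]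

end calculus

section two

variable {K : Type*} [NormedField K] [IsUltrametricDist K] [Algebra ℚ K]

/-- **end form**, product form -/
theorem norm_det_le {D : ℕ} (x : K) (R : Fin D × Fin 8 → Fin 8 → Polynomial K)
    (π : Equiv.Perm (Fin 8)) (h : ∀ r j, π j < π r.2 → R r j = 0) (σ : Fin D × Fin 8 → Cl)
    (A : Fin D × Fin 8 → ℝ) (B : Cl → ℝ) (hA : ∀ r, 0 ≤ A r) (hB : ∀ c, 0 ≤ B (σ c))
    (hent : ∀ r c, ‖rowVal K D x (σ c).1 (σ c).2 (R r)‖ ≤ A r * B (σ c)) :
    (∏ j, ‖(blk K R j).det‖) * ‖(Mx D x σ).det‖ ≤ (∏ r, A r) * ∏ c, B (σ c) := by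
  have h1 := det_VM K x R π h σ
  have h2 := Vale.Agent.P030.H914.det_norm_le (VM K x R σ) A (fun c => B (σ c)) hA hB
    (fun r c => hent r c)
  rw [h1, norm_mul, norm_prod] at h2
  exact h2

theorem Mx_det_cast {F : Type*} [Field F] [Algebra ℚ F] (D : ℕ) (x : ℚ)
    (σ : Fin D × Fin 8 → Cl) :
    (Mx D (algebraMap ℚ F x) σ).det = algebraMap ℚ F (Mx D x σ).det := by
  have : (Mx D (algebraMap ℚ F x) σ) = (Mx D x σ).map (algebraMap ℚ F) := by
    ext r c
    rw [Mx_apply, Matrix.map_apply, Mx_apply]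
    unfold En
    rw [map_add, map_mul]
    rfl
  rw [this, RingHom.map_det]
  rfl

theorem norm_rat {p : ℕ} [Fact p.Prime] (q : ℚ) (hq : q ≠ 0) :
    ‖(algebraMap ℚ ℚ_[p] q)‖ = (p : ℝ) ^ (-(padicValRat p q : ℝ)) := by
  have h1 : (algebraMap ℚ ℚ_[p] q) = (q : ℚ_[p]) := eq_ratCast _ _
  rw [h1, Padic.eq_padicNorm, padicNorm.eq_zpow_of_nonzero hq, ← Int.cast_neg,
    Real.rpow_intCast]
  push_cast
  rfl

/-- **end form at the prime `p = 2`** -/
theorem neg_val_le {D : ℕ} (x : ℚ) (R : Fin D × Fin 8 → Fin 8 → Polynomial ℚ_[2])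
    (π : Equiv.Perm (Fin 8)) (h : ∀ r j, π j < π r.2 → R r j = 0) (σ : Fin D × Fin 8 → Cl)
    (A : Fin D × Fin 8 → ℝ) (B : Cl → ℝ) (δ : Fin 8 → ℝ)
    (hblk : ∀ j, (2 : ℝ) ^ (-δ j) ≤ ‖(blk ℚ_[2] R j).det‖)
    (hent : ∀ r c, ‖rowVal ℚ_[2] D (algebraMap ℚ ℚ_[2] x) (σ c).1 (σ c).2 (R r)‖ ≤
      (2 : ℝ) ^ (A r + B (σ c))) (hdet : (Mx D x σ).det ≠ 0) :
    -(padicValRat 2 (Mx D x σ).det : ℝ) ≤ ∑ r, A r + ∑ c, B (σ c) + ∑ j, δ j := by
  have h2 : (0 : ℝ) < 2 := by norm_num
  have h1 := norm_det_le (K := ℚ_[2]) (algebraMap ℚ ℚ_[2] x) R π h σ (fun r => (2 : ℝ) ^ A r)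
    (fun c => (2 : ℝ) ^ B c) (fun r => (Real.rpow_pos_of_pos h2 _).le)
    (fun c => (Real.rpow_pos_of_pos h2 _).le) (fun r c => by
      rw [← Real.rpow_add h2]; exact hent r c)
  rw [Mx_det_cast, norm_rat _ hdet, ← Real.rpow_sum_of_pos h2, ← Real.rpow_sum_of_pos h2,
    ← Real.rpow_add h2] at h1
  have h3 : (2 : ℝ) ^ (-∑ j, δ j) ≤ ∏ j, ‖(blk ℚ_[2] R j).det‖ := by
    rw [← Finset.sum_neg_distrib, Real.rpow_sum_of_pos h2]
    exact Finset.prod_le_prod (fun j _ => (Real.rpow_pos_of_pos h2 _).le) fun j _ => hblk j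
  have h4 : (2 : ℝ) ^ (-∑ j, δ j) * ((2 : ℕ) : ℝ) ^ (-(padicValRat 2 (Mx D x σ).det : ℝ)) ≤
      (2 : ℝ) ^ (∑ r, A r + ∑ c, B (σ c)) :=
    (mul_le_mul_of_nonneg_right h3 (Real.rpow_nonneg (by norm_num) _)).trans h1
  rw [Nat.cast_ofNat, ← Real.rpow_add h2, Real.rpow_le_rpow_left_iff (by norm_num)] at h4
  linarith

end two

end Vale.Agent.P030.H869
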