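import Vale.Agent.P030.H869.Ev
import Vale.Agent.P030.H486.Table

/-!
# P030, the prime 2: the adapted family of rows

Types `0..5` are the polylogarithmic sections of `H486` for `h = S^i`; the types `6`, `7` are
`h_i e_F - tF_i e_1`, `h_i e_T - tT_i e_1` with coefficients in `ℚ_2`.  Result `neg_val_le_fam`:
entry bounds for the family bound the 2-adic valuation of the determinant.
-/

open PowerSeries

namespace Vale.Agent.P030.H869

open Vale.Agent.P030.T hiding cB
open Vale.Agent.P030.H486 (cB cD hm hm_apply val val1 sec nv bnd tab cst entry_bound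
  val1_eq_zero brk brk_inj sec_eq_zero sec_self)

section bridge

variable (K : Type*) [Field K] [Algebra ℚ K]

theorem map_geo : (geo).map (algebraMap ℚ K) = (mk fun _ => (1 : K)) := by
  ext n; simp [geo]

theorem SN_eq (c : Fin 4) : SN K c = (cB c).map (algebraMap ℚ K) := by
  have h1 : (C (1 / 2 : ℚ) : ℚ⟦X⟧).map (algebraMap ℚ K) = C (1 / 2) := by
    rw [PowerSeries.map_C, map_div₀, map_one, map_ofNat]
  have h2 : (X : ℚ⟦X⟧).map (algebraMap ℚ K) = X := PowerSeries.map_X _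
  fin_cases c
  · exact (map_geo K).symm
  · change C (1 / 2) * (1 - X) = (C (1 / 2 : ℚ) * (1 - X) : ℚ⟦X⟧).map (algebraMap ℚ K)
    rw [map_mul, h1, map_sub, map_one, h2]
  · change -(X * mk fun _ => (1 : K)) = (-(X * geo)).map (algebraMap ℚ K)
    rw [map_neg, map_mul, h2, map_geo]
  · change -(C (1 / 2) * (1 - X)) = (-(C (1 / 2 : ℚ) * (1 - X)) : ℚ⟦X⟧).map (algebraMap ℚ K)
    rw [map_neg, map_mul, h1, map_sub, map_one, h2]

theorem SD_eq (c : Fin 4) : SD K c = (cD c).map (algebraMap ℚ K) := by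
  fin_cases c
  · exact (map_one (PowerSeries.map (algebraMap ℚ K))).symm
  · exact (map_one (PowerSeries.map (algebraMap ℚ K))).symm
  · exact (map_one (PowerSeries.map (algebraMap ℚ K))).symm
  · exact (PowerSeries.map_X (algebraMap ℚ K)).symm

theorem evP_map (n : ℕ) (c : Fin 4) (p : Polynomial ℚ) :
    evP K (n + 1) c (p.map (algebraMap ℚ K)) =
      (hm n (cB c) (cD c) p).map (algebraMap ℚ K) := by
  rw [hm_apply, map_sum]
  unfold evP
  refine Finset.sum_congr rfl fun a _ => ?_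
  rw [Polynomial.coeff_map, SN_eq, SD_eq, PowerSeries.smul_eq_C_mul, map_mul, map_mul, map_pow,
    map_pow, PowerSeries.map_C]
  rfl

/-- the value of a rational section -/
theorem rowVal_map (n : ℕ) (x : K) (g : Gp) (k : ℕ) (P : Fin 8 → Polynomial ℚ) :
    rowVal K (n + 1) x g k (fun j => (P j).map (algebraMap ℚ K)) =
      algebraMap ℚ K (coeff k (val n P g)) + x * algebraMap ℚ K (coeff k (val1 n P g)) := by
  unfold rowVal val val1 Tup
  rw [map_sum, map_sum, map_sum, map_sum, Finset.mul_sum, ← Finset.sum_add_distrib]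
  refine Finset.sum_congr rfl fun j _ => ?_
  rw [evP_map, mul_add, map_add, ← map_mul, PowerSeries.coeff_map, mul_left_comm, ← map_mul,
    PowerSeries.coeff_C_mul, PowerSeries.coeff_map]

end bridge

/-- the K-rows: `h e_j - t e_1` -/
noncomputable def krow (j : Fin 8) (h t : Polynomial ℚ_[2]) : Fin 8 → Polynomial ℚ_[2] :=
  fun a => if a = j then h else if a = 0 then -t else 0

/-- the adapted family -/
noncomputable def fam (n : ℕ) (h tF tT : Fin (n + 1) → Polynomial ℚ_[2])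
    (r : Fin (n + 1) × Fin 8) : Fin 8 → Polynomial ℚ_[2] :=
  if r.2 = 6 then krow 6 (h r.1) (tF r.1) else if r.2 = 7 then krow 7 (h r.1) (tT r.1) else
    fun j => (sec n (Polynomial.X ^ (r.1 : ℕ)) r.2 j).map (algebraMap ℚ ℚ_[2])

noncomputable def brkE : Equiv.Perm (Fin 8) :=
  Equiv.ofBijective brk (Finite.injective_iff_bijective.1 brk_inj)

theorem fam_tri (n : ℕ) (h tF tT : Fin (n + 1) → Polynomial ℚ_[2]) (r : Fin (n + 1) × Fin 8)
    (j : Fin 8) (hj : brkE j < brkE r.2) : fam n h tF tT r j = 0 := by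
  have hj' : brk j < brk r.2 := hj
  unfold fam
  split_ifs with h6 h7
  · rw [h6] at hj'
    unfold krow
    have e1 : j ≠ 6 := by rintro rfl; exact lt_irrefl _ hj'
    have e2 : j ≠ 0 := by rintro rfl; exact absurd hj' (by decide)
    rw [if_neg e1, if_neg e2]
  · rw [h7] at hj'
    unfold krow
    have e1 : j ≠ 7 := by rintro rfl; exact lt_irrefl _ hj'
    have e2 : j ≠ 0 := by rintro rfl; exact absurd hj' (by decide)
    rw [if_neg e1, if_neg e2]
  · simp only [sec_eq_zero n _ r.2 j hj', Polynomial.map_zero]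

theorem det_blk_fam_low (n : ℕ) (h tF tT : Fin (n + 1) → Polynomial ℚ_[2]) (j : Fin 8)
    (hj : (j : ℕ) < 6) : (blk ℚ_[2] (fam n h tF tT) j).det = 1 := by
  have h6 : j ≠ 6 := by rintro rfl; exact absurd hj (by decide)
  have h7 : j ≠ 7 := by rintro rfl; exact absurd hj (by decide)
  have : blk ℚ_[2] (fam n h tF tT) j = 1 := by
    ext i a
    simp only [blk, Matrix.of_apply, fam, if_neg h6, if_neg h7, sec_self, Polynomial.map_pow,
      Polynomial.map_X, Polynomial.coeff_X_pow, Matrix.one_apply]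
    congr 1
    rw [Fin.ext_iff]
    exact propext eq_comm
  rw [this, Matrix.det_one]

theorem blk_fam_six (n : ℕ) (h tF tT : Fin (n + 1) → Polynomial ℚ_[2]) :
    blk ℚ_[2] (fam n h tF tT) 6 = Matrix.of fun i a : Fin (n + 1) => (h i).coeff a := by
  ext i a
  simp [blk, fam, krow]

theorem blk_fam_seven (n : ℕ) (h tF tT : Fin (n + 1) → Polynomial ℚ_[2]) :
    blk ℚ_[2] (fam n h tF tT) 7 = Matrix.of fun i a : Fin (n + 1) => (h i).coeff a := by
  ext i a
  have : (7 : Fin 8) ≠ 6 := by decide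
  simp [blk, fam, krow]

/-- the polylogarithmic entries -/
theorem norm_rowVal_fam_low (n : ℕ) (h tF tT : Fin (n + 1) → Polynomial ℚ_[2]) (x : ℚ_[2])
    (i : Fin (n + 1)) (ty : Fin 8) (hty : (ty : ℕ) < 6) (g : Gp) (k : ℕ)
    (hk : g = .vb ∨ g = .x1 → k ≤ n) :
    ‖rowVal ℚ_[2] (n + 1) x g k (fam n h tF tT (i, ty))‖ ≤ cst n k * bnd n i k (tab ty g) := by
  have h6 : ty ≠ 6 := by rintro rfl; exact absurd hty (by decide)
  have h7 : ty ≠ 7 := by rintro rfl; exact absurd hty (by decide)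
  have e : fam n h tF tT (i, ty) =
      fun j => (sec n (Polynomial.X ^ (i : ℕ)) ty j).map (algebraMap ℚ ℚ_[2]) := by
    funext j
    simp only [fam, if_neg h6, if_neg h7]
  rw [e, rowVal_map, val1_eq_zero _ ty hty g]
  simp only [map_zero, mul_zero, add_zero]
  have := entry_bound (n := n) (i := i) (k := k) (Nat.lt_succ_iff.1 i.2) ty hty g hk
  rw [nv] at this
  rw [show (algebraMap ℚ ℚ_[2]) (coeff k (val n (sec n (Polynomial.X ^ (i : ℕ)) ty) g)) =
    ((coeff k (val n (sec n (Polynomial.X ^ (i : ℕ)) ty) g) : ℚ) : ℚ_[2]) from eq_ratCast _ _]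
  exact this

/-- **the valuation of the determinant from the entries of the adapted family** -/
theorem neg_val_le_fam {D n : ℕ} (hD : D = n + 1) (x : ℚ) (σ : Fin D × Fin 8 → Cl)
    (h tF tT : Fin (n + 1) → Polynomial ℚ_[2]) (A : ℕ → Fin 8 → ℝ) (B : Cl → ℝ) (δ : ℝ)
    (hH : (2 : ℝ) ^ (-δ) ≤ ‖(Matrix.of fun i a : Fin (n + 1) => (h i).coeff a).det‖)
    (hvx : ∀ c, (σ c).1 = .vb ∨ (σ c).1 = .x1 → (σ c).2 ≤ n)
    (hP : ∀ (i : Fin (n + 1)) (ty : Fin 8) (c), (ty : ℕ) < 6 →
      cst n (σ c).2 * bnd n i (σ c).2 (tab ty (σ c).1) ≤ (2 : ℝ) ^ (A i ty + B (σ c)))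
    (hF : ∀ (i : Fin (n + 1)) (c), ‖rowVal ℚ_[2] (n + 1) (algebraMap ℚ ℚ_[2] x) (σ c).1 (σ c).2
      (krow 6 (h i) (tF i))‖ ≤ (2 : ℝ) ^ (A i 6 + B (σ c)))
    (hT : ∀ (i : Fin (n + 1)) (c), ‖rowVal ℚ_[2] (n + 1) (algebraMap ℚ ℚ_[2] x) (σ c).1 (σ c).2
      (krow 7 (h i) (tT i))‖ ≤ (2 : ℝ) ^ (A i 7 + B (σ c)))
    (hdet : (Mx D x σ).det ≠ 0) :
    -(padicValRat 2 (Mx D x σ).det : ℝ) ≤
      ∑ i ∈ Finset.range D, ∑ ty, A i ty + ∑ c, B (σ c) + 2 * δ := by
  subst hD
  have key := neg_val_le x (fam n h tF tT) brkE (fam_tri n h tF tT) σ (fun r => A r.1 r.2) B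
    (fun j => if (j : ℕ) < 6 then 0 else δ) ?_ ?_ hdet
  · have e1 : ∑ r : Fin (n + 1) × Fin 8, A r.1 r.2 =
        ∑ i ∈ Finset.range (n + 1), ∑ ty, A i ty := by
      rw [Fintype.sum_prod_type, Finset.sum_range]
    have e2 : ∑ j : Fin 8, (if (j : ℕ) < 6 then (0 : ℝ) else δ) = 2 * δ := by
      rw [Fin.sum_univ_eight]
      simp
      ring
    rw [e1, e2] at key
    exact key
  · intro j
    by_cases hj : (j : ℕ) < 6
    · simp only [if_pos hj]
      rw [det_blk_fam_low n h tF tT j hj]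
      simp
    · simp only [if_neg hj]
      have hj2 : j = 6 ∨ j = 7 := by
        fin_cases j <;> simp at hj ⊢
      rcases hj2 with rfl | rfl
      · rw [blk_fam_six]; exact hH
      · rw [blk_fam_seven]; exact hH
  · rintro ⟨i, ty⟩ c
    by_cases hj : (ty : ℕ) < 6
    · exact (norm_rowVal_fam_low n h tF tT _ i ty hj _ _ (hvx c)).trans (hP i ty c hj)
    · have hj2 : ty = 6 ∨ ty = 7 := by
        fin_cases ty <;> simp at hj ⊢
      rcases hj2 with rfl | rfl
      · exact hF i c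
      · exact hT i c

end Vale.Agent.P030.H869
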