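import Vale.Agent.P030.H869.Join2
import Vale.Agent.P030.H721.Circ

/-!
# P030, the prime 2: the K-entries which do not see `F`

Groups `z8, wy, w8, v8, x2, xl, x1` (slots 6, 7) and the `x`-part of `z1`: the entry of order `k`
of the row `h e_F - t e_1` (`h e_T - t e_1`) is at most `16 (k+2) C 4^k`, `C` the Gauss norm of
`h` on the circle `|t| = 1/4` at the cusp.
-/

open PowerSeries

namespace Vale.Agent.P030.H869

open Vale.Agent.P030.T hiding cB
open Vale.Agent.P030.H721 (BQ hev Apot Wc bq_cusp0 bq_cusp1 bq_cusp2 bq_cusp3 hm_natDegree)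

/-! ### `evP` of the Hermite family -/

section hermite

variable {K : Type*} [Field K]

theorem evP_eq_hev (D : ℕ) (hD : 0 < D) (c : Fin 4) (h : Polynomial K) :
    evP K D c h = hev (D - 1) h (SN K c) (SD K c) := by
  unfold evP hev
  rw [Nat.sub_add_cancel hD]
  rfl

theorem evP_eq_aeval (D : ℕ) (c : Fin 4) (hc : SD K c = 1) (h : Polynomial K)
    (hh : h.natDegree < D) : evP K D c h = Polynomial.aeval (SN K c) h := by
  rw [Polynomial.aeval_eq_sum_range' hh]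
  unfold evP
  refine Finset.sum_congr rfl fun a _ => ?_
  rw [hc, one_pow, mul_one, PowerSeries.smul_eq_C_mul]

end hermite

theorem norm_two : ‖(2 : ℚ_[2])‖ = 1 / 2 := by
  have := Padic.norm_p (p := 2)
  rw [Nat.cast_ofNat] at this
  rw [this]
  norm_num

/-- exponent of the Gauss norm of the Hermite row `i` at the cusp `c` -/
def EW (D n0 n1 n2 i : ℕ) (c : Fin 4) : ℤ :=
  Apot n0 n1 n2 i + Wc n0 n1 n2 c - if c = 3 then 2 * ((D : ℤ) - 1) else 0

theorem bq_evP (n0 n1 n2 D i : ℕ) (hD : n0 + n1 + n2 ≤ D) (hi : i < D) (c : Fin 4) :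
    BQ ((2 : ℝ) ^ EW D n0 n1 n2 i c)
      (evP ℚ_[2] D c (Vale.Agent.P030.H721.hm (1 : ℚ_[2]) (1 / 2) 0 n0 n1 n2 i)) := by
  have hdeg := hm_natDegree (1 : ℚ_[2]) (1 / 2) 0 hD hi
  have hg : (1 - X) * (mk fun _ => (1 : ℚ_[2]) : ℚ_[2]⟦X⟧) = 1 := by
    rw [mul_comm]; exact geoK_mul ℚ_[2]
  have hg1 : ∀ n, ‖coeff n (mk fun _ => (1 : ℚ_[2]) : ℚ_[2]⟦X⟧)‖ ≤ 1 := by
    intro n; simp
  fin_cases c
  · have e : EW D n0 n1 n2 i 0 = Apot n0 n1 n2 i + Wc n0 n1 n2 0 := by simp [EW]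
    change BQ ((2 : ℝ) ^ EW D n0 n1 n2 i 0) (evP ℚ_[2] D 0 _)
    rw [e, evP_eq_aeval D 0 rfl _ hdeg]
    exact bq_cusp0 n0 n1 n2 i norm_two hg hg1
  · have e : EW D n0 n1 n2 i 1 = Apot n0 n1 n2 i + Wc n0 n1 n2 1 := by simp [EW]
    change BQ ((2 : ℝ) ^ EW D n0 n1 n2 i 1) (evP ℚ_[2] D 1 _)
    rw [e, evP_eq_aeval D 1 rfl _ hdeg]
    exact bq_cusp1 n0 n1 n2 i norm_two
  · have e : EW D n0 n1 n2 i 2 = Apot n0 n1 n2 i + Wc n0 n1 n2 2 := by simp [EW]
    change BQ ((2 : ℝ) ^ EW D n0 n1 n2 i 2) (evP ℚ_[2] D 2 _)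
    rw [e, evP_eq_aeval D 2 rfl _ hdeg]
    exact bq_cusp2 n0 n1 n2 i norm_two hg hg1
  · have e : EW D n0 n1 n2 i 3 = Apot n0 n1 n2 i + Wc n0 n1 n2 3 - 2 * ((D : ℤ) - 1) := by
      simp [EW]
    change BQ ((2 : ℝ) ^ EW D n0 n1 n2 i 3) (evP ℚ_[2] D 3 _)
    rw [e, evP_eq_hev D (by omega)]
    exact bq_cusp3 n0 n1 n2 D i hD hi norm_two

/-! ### truncated Gauss norms on `|t| = 1/4` -/

/-- `‖coeff n f‖ ≤ c 4^n` for `n ≤ N` -/
def BN (N : ℕ) (c : ℝ) (f : ℚ_[2]⟦X⟧) : Prop := ∀ n ≤ N, ‖coeff n f‖ ≤ c * 4 ^ n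

theorem BN.nonneg {N : ℕ} {c : ℝ} {f : ℚ_[2]⟦X⟧} (h : BN N c f) : 0 ≤ c := by
  have := (norm_nonneg _).trans (h 0 (Nat.zero_le _))
  simpa using this

theorem BN.mono {N : ℕ} {c d : ℝ} {f : ℚ_[2]⟦X⟧} (h : BN N c f) (hcd : c ≤ d) : BN N d f :=
  fun n hn => (h n hn).trans (mul_le_mul_of_nonneg_right hcd (by positivity))

theorem BN.of_BQ {N : ℕ} {c : ℝ} {f : ℚ_[2]⟦X⟧} (h : BQ c f) : BN N c f := fun n _ => h n

theorem BN.anti {N M : ℕ} {c : ℝ} {f : ℚ_[2]⟦X⟧} (h : BN N c f) (hM : M ≤ N) : BN M c f :=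
  fun n hn => h n (hn.trans hM)

theorem BN.mul {N : ℕ} {c d : ℝ} {f g : ℚ_[2]⟦X⟧} (hf : BN N c f) (hg : BN N d g) :
    BN N (c * d) (f * g) := by
  intro n hn
  rw [PowerSeries.coeff_mul]
  refine IsUltrametricDist.norm_sum_le_of_forall_le_of_nonneg
    (mul_nonneg (mul_nonneg hf.nonneg hg.nonneg) (by positivity)) fun p hp => ?_
  rw [Finset.HasAntidiagonal.mem_antidiagonal] at hp
  rw [norm_mul]
  calc _ ≤ (c * 4 ^ p.1) * (d * 4 ^ p.2) :=
        mul_le_mul (hf _ (by omega)) (hg _ (by omega)) (norm_nonneg _)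
          (mul_nonneg hf.nonneg (by positivity))
    _ = c * d * 4 ^ (p.1 + p.2) := by rw [pow_add]; ring
    _ = _ := by rw [hp]

theorem BN.add {N : ℕ} {c : ℝ} {f g : ℚ_[2]⟦X⟧} (hf : BN N c f) (hg : BN N c g) :
    BN N c (f + g) := by
  intro n hn
  rw [map_add]
  exact (IsUltrametricDist.norm_add_le_max _ _).trans (max_le (hf n hn) (hg n hn))

theorem BN.neg {N : ℕ} {c : ℝ} {f : ℚ_[2]⟦X⟧} (hf : BN N c f) : BN N c (-f) := by
  intro n hn
  rw [map_neg, norm_neg]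
  exact hf n hn

theorem BN.C_mul {N : ℕ} {c : ℝ} {f : ℚ_[2]⟦X⟧} (a : ℚ_[2]) (hf : BN N c f) :
    BN N (‖a‖ * c) (C a * f) := by
  intro n hn
  rw [PowerSeries.coeff_C_mul, norm_mul, mul_assoc]
  exact mul_le_mul_of_nonneg_left (hf n hn) (norm_nonneg _)

theorem BN.varX {N : ℕ} : BN N (1 / 4) X := BN.of_BQ BQ.X

theorem BN.mulX {N : ℕ} {c : ℝ} {f : ℚ_[2]⟦X⟧} (hf : BN N c f) : BN N (c / 4) (X * f) :=
  (BN.varX.mul hf).mono (by linarith)

theorem BN.one {N : ℕ} : BN N 1 1 := BN.of_BQ BQ.one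

theorem BN.one_sub {N : ℕ} {c : ℝ} {f : ℚ_[2]⟦X⟧} (hf : BN N c f) : BN N c ((1 - X) * f) := by
  have h : BN N 1 (1 - X) := BN.of_BQ (Vale.Agent.P030.H721.bq_omX)
  exact (h.mul hf).mono (by linarith)

theorem BN.one_add {N : ℕ} {c : ℝ} {f : ℚ_[2]⟦X⟧} (hf : BN N c f) : BN N c ((1 + X) * f) := by
  have h : BN N 1 (1 + X) := BN.of_BQ (Vale.Agent.P030.H721.bq_opX)
  exact (h.mul hf).mono (by linarith)

/-! ### the operators of `T/Defs` after the base change -/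

theorem norm_natCast_le (n : ℕ) : ‖(n : ℚ_[2])‖ ≤ 1 := by
  have := Padic.norm_int_le_one (p := 2) (n : ℤ)
  rwa [Int.cast_natCast] at this

theorem norm_succ_le (n : ℕ) : ‖((n : ℚ_[2]) + 1)‖ ≤ 1 := by
  have := norm_natCast_le (n + 1)
  rwa [Nat.cast_add, Nat.cast_one] at this

/-- base change of rational series -/
noncomputable abbrev mp (f : ℚ⟦X⟧) : ℚ_[2]⟦X⟧ := f.map (algebraMap ℚ ℚ_[2])

theorem mp_C (q : ℚ) : mp (C q) = C (q : ℚ_[2]) := by
  rw [mp, PowerSeries.map_C]; rfl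

theorem mp_sc (q : ℚ) (f : ℚ⟦X⟧) : mp (sc q f) = C (q : ℚ_[2]) * mp f := by
  unfold sc
  rw [mp, map_mul]
  congr 1
  exact mp_C q

theorem coeff_mp_dd (f : ℚ⟦X⟧) (n : ℕ) :
    coeff n (mp (dd f)) = ((n : ℚ_[2]) + 1) * coeff (n + 1) (mp f) := by
  simp [mp, dd]

theorem coeff_mp_th (f : ℚ⟦X⟧) (n : ℕ) :
    coeff n (mp (th f)) = (n : ℚ_[2]) * coeff n (mp f) := by
  simp [mp, th]

theorem BN.dd {N : ℕ} {c : ℝ} {f : ℚ⟦X⟧} (hf : BN (N + 1) c (mp f)) :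
    BN N (4 * c) (mp (T.dd f)) := by
  intro n hn
  rw [coeff_mp_dd, norm_mul]
  calc _ ≤ 1 * (c * 4 ^ (n + 1)) :=
        mul_le_mul (norm_succ_le n) (hf _ (by omega)) (norm_nonneg _) zero_le_one
    _ = _ := by ring

theorem BN.th {N : ℕ} {c : ℝ} {f : ℚ⟦X⟧} (hf : BN N c (mp f)) : BN N c (mp (T.th f)) := by
  intro n hn
  rw [coeff_mp_th, norm_mul]
  calc _ ≤ 1 * (c * 4 ^ n) :=
        mul_le_mul (norm_natCast_le n) (hf _ hn) (norm_nonneg _) zero_le_one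
    _ = _ := by ring

theorem norm_half : ‖((1 / 2 : ℚ) : ℚ_[2])‖ = 2 := by
  rw [Rat.cast_div, Rat.cast_one, Rat.cast_ofNat, norm_div, norm_one, norm_two]
  norm_num

theorem norm_quarter : ‖((1 / 4 : ℚ) : ℚ_[2])‖ = 4 := by
  have : ((1 / 4 : ℚ) : ℚ_[2]) = ((1 / 2 : ℚ) : ℚ_[2]) ^ 2 := by norm_num
  rw [this, norm_pow, norm_half]
  norm_num

theorem norm_eighth : ‖((1 / 8 : ℚ) : ℚ_[2])‖ = 8 := by
  have : ((1 / 8 : ℚ) : ℚ_[2]) = ((1 / 2 : ℚ) : ℚ_[2]) ^ 3 := by norm_num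
  rw [this, norm_pow, norm_half]
  norm_num

theorem mp_tw (f : ℚ⟦X⟧) :
    mp (tw f) = C ((1 / 2 : ℚ) : ℚ_[2]) * ((1 + X) * mp (T.dd ((1 - X) * f))) := by
  unfold tw
  rw [mp_sc]
  congr 1
  rw [mp, map_mul, map_add, map_one, PowerSeries.map_X]

theorem mp_one_sub (f : ℚ⟦X⟧) : mp ((1 - X) * f) = (1 - X) * mp f := by
  rw [mp, map_mul, map_sub, map_one, PowerSeries.map_X]

theorem mp_X_mul (f : ℚ⟦X⟧) : mp (X * f) = X * mp f := by
  rw [mp, map_mul, PowerSeries.map_X]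

theorem mp_neg (f : ℚ⟦X⟧) : mp (-f) = -mp f := map_neg _ _

theorem mp_add (f g : ℚ⟦X⟧) : mp (f + g) = mp f + mp g := map_add _ _ _

theorem BN.tw {N : ℕ} {c : ℝ} {f : ℚ⟦X⟧} (hf : BN (N + 1) c (mp f)) :
    BN N (8 * c) (mp (T.tw f)) := by
  rw [mp_tw]
  have h1 : BN (N + 1) c (mp ((1 - X) * f)) := by rw [mp_one_sub]; exact hf.one_sub
  refine ((BN.C_mul _ (h1.dd.one_add))).mono ?_
  rw [norm_half]
  linarith [hf.nonneg]

/-! ### the series `K`, `M` -/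

theorem norm_coeff_serK (n : ℕ) : ‖coeff n (mp serK)‖ ≤ 4 ^ n := by
  have h4 : ‖(4 : ℚ_[2])‖ = 1 / 4 := by
    have : (4 : ℚ_[2]) = 2 ^ 2 := by norm_num
    rw [this, norm_pow, norm_two]; norm_num
  rw [mp, PowerSeries.coeff_map, serK, PowerSeries.coeff_mk]
  split_ifs with h
  · rw [map_div₀, map_pow, map_pow, map_natCast, map_ofNat, norm_div, norm_pow, norm_pow, h4]
    rw [one_div, inv_pow, div_inv_eq_mul]
    have h1 : ‖((Nat.centralBinom (n / 2) : ℕ) : ℚ_[2])‖ ^ 2 ≤ 1 :=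
      pow_le_one₀ (norm_nonneg _) (norm_natCast_le _)
    nlinarith [pow_pos (show (0 : ℝ) < 4 by norm_num) n]
  · rw [map_zero, norm_zero]; positivity

theorem bn_serK (N : ℕ) : BN N 1 (mp serK) := fun n _ => by
  rw [one_mul]; exact norm_coeff_serK n

theorem norm_one_div_nat_le {n : ℕ} (hn : n ≠ 0) : ‖((1 / (n : ℚ) : ℚ) : ℚ_[2])‖ ≤ n :=
  Vale.Agent.P030.H486.nv_nat_inv n hn

theorem norm_cMs (n : ℕ) : ‖((cMs n : ℚ) : ℚ_[2])‖ ≤ (n : ℝ) + 1 := by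
  unfold cMs
  rw [Rat.cast_sum]
  refine IsUltrametricDist.norm_sum_le_of_forall_le_of_nonneg (by positivity) fun j hj => ?_
  rw [Finset.mem_range] at hj
  have h1 : ‖((2 / (2 * (j : ℚ) + 1) : ℚ) : ℚ_[2])‖ ≤ (n : ℝ) + 1 := by
    have e : (2 / (2 * (j : ℚ) + 1) : ℚ) = 2 * (1 / ((2 * j + 1 : ℕ) : ℚ)) := by
      push_cast; ring
    rw [e, Rat.cast_mul, norm_mul, Rat.cast_ofNat, norm_two]
    have h2 := norm_one_div_nat_le (n := 2 * j + 1) (by omega)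
    have h3 : ((2 * j + 1 : ℕ) : ℝ) ≤ (n : ℝ) + 1 := by
      exact_mod_cast (by omega : 2 * j + 1 ≤ n + 1)
    nlinarith [norm_nonneg ((1 / ((2 * j + 1 : ℕ) : ℚ) : ℚ) : ℚ_[2])]
  have h2 : ‖((2 / (2 * (j : ℚ) + 2) : ℚ) : ℚ_[2])‖ ≤ (n : ℝ) + 1 := by
    have e : (2 / (2 * (j : ℚ) + 2) : ℚ) = 1 / ((j + 1 : ℕ) : ℚ) := by
      push_cast
      rw [div_eq_div_iff (by positivity) (by positivity)]
      ring
    rw [e]
    have h2 := norm_one_div_nat_le (n := j + 1) (by omega)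
    have h3 : ((j + 1 : ℕ) : ℝ) ≤ (n : ℝ) + 1 := by
      exact_mod_cast (by omega : j + 1 ≤ n + 1)
    exact h2.trans h3
  rw [Rat.cast_sub]
  rw [sub_eq_add_neg]
  refine (IsUltrametricDist.norm_add_le_max _ _).trans (max_le h1 ?_)
  rw [norm_neg]
  exact h2

theorem bn_serM (N : ℕ) : BN N ((N : ℝ) + 1) (mp serM) := by
  intro n hn
  have e : coeff n (mp serM) = coeff n (mp serK) * ((cMs n : ℚ) : ℚ_[2]) := by
    rw [mp, mp, PowerSeries.coeff_map, PowerSeries.coeff_map, serM, PowerSeries.coeff_mk, map_mul]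
    rfl
  rw [e, norm_mul, mul_comm]
  refine mul_le_mul ((norm_cMs n).trans ?_) (norm_coeff_serK n) (norm_nonneg _) (by positivity)
  have : (n : ℝ) ≤ N := by exact_mod_cast hn
  linarith

/-! ### the slots 6, 7 -/

/-- the groups with a K-part which do not see `F` -/
def Kgp : Gp → Prop
  | .z8 => True | .wy => True | .w8 => True | .v8 => True | .x2 => True | .xl => True
  | .x1 => True | _ => False

theorem Tup_eq_mp (x : ℚ_[2]) (g : Gp) (hg : g ≠ .z1) (j : Fin 8) :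
    Tup ℚ_[2] x g j = mp (tup0 g j) := by
  unfold Tup
  have : tup1 g j = 0 := by cases g <;> first | rfl | exact absurd rfl hg
  rw [this, map_zero, mul_zero, add_zero]

theorem bn_slot (x : ℚ_[2]) (g : Gp) (hg : Kgp g) (j : Fin 8) (hj : j = 6 ∨ j = 7) (N : ℕ) :
    BN N (16 * ((N : ℝ) + 2)) (Tup ℚ_[2] x g j) := by
  have hN : (0 : ℝ) ≤ N := Nat.cast_nonneg N
  have hne : g ≠ .z1 := by rintro rfl; exact hg
  rw [Tup_eq_mp x g hne]
  have hK := bn_serK N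
  have hK1 := bn_serK (N + 1)
  have hM := bn_serM N
  have hM1 := bn_serM (N + 1)
  have hN1 : (((N + 1 : ℕ)) : ℝ) = (N : ℝ) + 1 := by push_cast; ring
  rw [hN1] at hM1
  cases g <;> first | exact absurd hg id | skip
  · -- z8
    rcases hj with rfl | rfl
    · change BN N _ (mp ((1 - X) * serK))
      rw [mp_one_sub]
      exact hK.one_sub.mono (by linarith)
    · change BN N _ (mp ((1 - X) * th serK))
      rw [mp_one_sub]
      exact hK.th.one_sub.mono (by linarith)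
  · -- wy
    rcases hj with rfl | rfl
    · change BN N _ (mp (-serK))
      rw [mp_neg]
      exact hK.neg.mono (by linarith)
    · change BN N _ (mp (-tw serK))
      rw [mp_neg]
      exact hK1.tw.neg.mono (by linarith)
  · -- w8
    rcases hj with rfl | rfl
    · change BN N _ (mp serK)
      exact hK.mono (by linarith)
    · change BN N _ (mp (tw serK))
      exact hK1.tw.mono (by linarith)
  · -- v8
    rcases hj with rfl | rfl
    · change BN N _ (mp (-((1 - X) * serK)))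
      rw [mp_neg, mp_one_sub]
      exact hK.one_sub.neg.mono (by linarith)
    · change BN N _ (mp ((1 - X) * dd (X * serK)))
      rw [mp_one_sub]
      have h1 : BN (N + 1) (1 / 4) (mp (X * serK)) := by rw [mp_X_mul]; exact hK1.mulX
      exact h1.dd.one_sub.mono (by linarith)
  · -- x2
    rcases hj with rfl | rfl
    · change BN N _ (mp (sc (1 / 8) (X * serK)))
      rw [mp_sc, mp_X_mul]
      refine (BN.C_mul _ hK.mulX).mono ?_
      rw [norm_eighth]; linarith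
    · change BN N _ (mp (sc (1 / 8) (X * tw serK)))
      rw [mp_sc, mp_X_mul]
      refine (BN.C_mul _ hK1.tw.mulX).mono ?_
      rw [norm_eighth]; linarith
  · -- xl
    rcases hj with rfl | rfl
    · change BN N _ (mp (-(X * serK)))
      rw [mp_neg, mp_X_mul]
      exact hK.mulX.neg.mono (by linarith)
    · change BN N _ (mp (-(X * tw serK)))
      rw [mp_neg, mp_X_mul]
      exact hK1.tw.mulX.neg.mono (by linarith)
  · -- x1
    rcases hj with rfl | rfl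
    · change BN N _ (mp (sc (1 / 4) (X * serM)))
      rw [mp_sc, mp_X_mul]
      refine (BN.C_mul _ hM.mulX).mono ?_
      rw [norm_quarter]; linarith
    · change BN N _ (mp (sc (1 / 4) (X * tw serM + sc (1 / 2) ((1 - X ^ 2) * serK))))
      rw [mp_sc, mp_add, mp_X_mul, mp_sc]
      have e : mp ((1 - X ^ 2) * serK) = (1 - X) * ((1 + X) * mp serK) := by
        rw [mp, map_mul, map_sub, map_one, map_pow, PowerSeries.map_X]; ring
      rw [e]
      have h1 : BN N (2 * ((N : ℝ) + 2)) (X * mp (tw serM)) :=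
        hM1.tw.mulX.mono (by linarith)
      have h2 : BN N (2 * ((N : ℝ) + 2)) (C ((1 / 2 : ℚ) : ℚ_[2]) * ((1 - X) *
          ((1 + X) * mp serK))) := by
        refine (BN.C_mul _ hK.one_add.one_sub).mono ?_
        rw [norm_half]; linarith
      refine (BN.C_mul _ (h1.add h2)).mono ?_
      rw [norm_quarter]; linarith

theorem slot_zero (x : ℚ_[2]) (g : Gp) (hg : g ≠ .z1) (hg' : g ≠ .w1) :
    Tup ℚ_[2] x g 0 = 0 := by
  rw [Tup_eq_mp x g hg]
  have : tup0 g 0 = 0 := by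
    cases g <;> first | rfl | exact absurd rfl hg | exact absurd rfl hg'
  rw [this, mp, map_zero]

/-- **the K-entries which do not see `F`** -/
theorem norm_rowVal_krow_le (D : ℕ) (x : ℚ_[2]) (g : Gp) (hg : Kgp g) (k : ℕ) (j : Fin 8)
    (hj : j = 6 ∨ j = 7) (h t : Polynomial ℚ_[2]) (c : ℝ)
    (hh : BQ c (evP ℚ_[2] D g.cusp h)) :
    ‖rowVal ℚ_[2] D x g k (krow j h t)‖ ≤ c * (16 * ((k : ℝ) + 2)) * 4 ^ k := by
  have hj0 : j ≠ 0 := by rcases hj with rfl | rfl <;> decide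
  have h1 : g ≠ .z1 := by rintro rfl; exact hg
  have h2 : g ≠ .w1 := by rintro rfl; exact hg
  rw [rowVal_krow D x g k j hj0, slot_zero x g h1 h2, mul_zero, map_zero, sub_zero]
  exact ((BN.of_BQ hh).mul (bn_slot x g hg j hj k)) k le_rfl

/-- the other groups without F-part are not seen at all -/
theorem rowVal_krow_eq_zero (D : ℕ) (x : ℚ_[2]) (g : Gp) (hg : ¬ Kgp g) (h1 : g ≠ .z1)
    (h2 : g ≠ .w1) (k : ℕ) (j : Fin 8) (hj : j = 6 ∨ j = 7) (h t : Polynomial ℚ_[2]) :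
    rowVal ℚ_[2] D x g k (krow j h t) = 0 := by
  have hj0 : j ≠ 0 := by rcases hj with rfl | rfl <;> decide
  have h3 : Tup ℚ_[2] x g j = 0 := by
    rw [Tup_eq_mp x g h1]
    have : tup0 g j = 0 := by
      rcases hj with rfl | rfl <;> cases g <;>
        first | rfl | exact absurd rfl h1 | exact absurd rfl h2 | exact absurd trivial hg
    rw [this, mp, map_zero]
  rw [rowVal_krow D x g k j hj0, slot_zero x g h1 h2, h3]
  simp

/-- the entries of the Hermite K-rows in the groups which do not see `F` -/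
theorem norm_rowVal_herm_le (n0 n1 n2 D i : ℕ) (hD : n0 + n1 + n2 ≤ D) (hi : i < D)
    (x : ℚ_[2]) (g : Gp) (hg : Kgp g) (k : ℕ) (j : Fin 8) (hj : j = 6 ∨ j = 7)
    (t : Polynomial ℚ_[2]) :
    ‖rowVal ℚ_[2] D x g k (krow j (Vale.Agent.P030.H721.hm (1 : ℚ_[2]) (1 / 2) 0 n0 n1 n2 i) t)‖ ≤
      (2 : ℝ) ^ EW D n0 n1 n2 i g.cusp * (16 * ((k : ℝ) + 2)) * 4 ^ k :=
  norm_rowVal_krow_le D x g hg k j hj _ t _ (bq_evP n0 n1 n2 D i hD hi g.cusp)

end Vale.Agent.P030.H869
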