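import Vale.Agent.P030.H869.KEnt
import Vale.Agent.P030.H579.TwAsm

/-!
# P030, the prime 2: the input `KRowIn` from its entries at `z1` and `w1`
-/

namespace Vale.Agent.P030.H869

open Vale.Agent.P030.T hiding cB
open Vale.Agent.P030.H579 (parA hF ap wc kb KRowIn nA nB nC n_le)

/-- the entries of the two Hermite lines at `z1` and `w1` -/
def KZW (c0 : ℕ) : Prop :=
  ∀ x : ℚ, ∃ (C : ℝ) (m : ℕ), 0 ≤ C ∧ ∀ s : ℕ, 1 ≤ s → ∀ n : ℕ, n + 1 = 27 * s →
    ∃ tF tT : Fin (n + 1) → Polynomial ℚ_[2], ∀ (i : Fin (n + 1)) (k : ℕ),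
      (k < 32 * s + c0 →
        ‖rowVal ℚ_[2] (n + 1) (algebraMap ℚ ℚ_[2] x) .z1 k (krow 6 (hF s i) (tF i))‖
          ≤ C * ((s : ℝ) + 1) ^ m * kb s i k .z1 ∧
        ‖rowVal ℚ_[2] (n + 1) (algebraMap ℚ ℚ_[2] x) .z1 k (krow 7 (hF s i) (tT i))‖
          ≤ C * ((s : ℝ) + 1) ^ m * kb s i k .z1) ∧
      (k < 32 * s + c0 →
        ‖rowVal ℚ_[2] (n + 1) (algebraMap ℚ ℚ_[2] x) .w1 k (krow 6 (hF s i) (tF i))‖
          ≤ C * ((s : ℝ) + 1) ^ m * kb s i k .w1 ∧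
        ‖rowVal ℚ_[2] (n + 1) (algebraMap ℚ ℚ_[2] x) .w1 k (krow 7 (hF s i) (tT i))‖
          ≤ C * ((s : ℝ) + 1) ^ m * kb s i k .w1)

theorem kb_nonneg (s i k : ℕ) (g : Gp) : 0 ≤ kb s i k g := by
  have h : ∀ a : ℝ, (0 : ℝ) ≤ (2 : ℝ) ^ a := fun a => Real.rpow_nonneg (by norm_num) a
  cases g
  case z1 => exact (h _).trans (le_max_left _ _)
  all_goals first | exact le_refl (0 : ℝ) | exact h _

theorem zpow_mul_four (z : ℤ) (k : ℕ) :
    (2 : ℝ) ^ z * 4 ^ k = (2 : ℝ) ^ ((z : ℝ) + 2 * k) := by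
  rw [Real.rpow_add two_pos, Real.rpow_intCast, Real.rpow_mul two_pos.le, Real.rpow_natCast]
  norm_num

/-- the easy groups -/
theorem easy_bound (c0 s n : ℕ) (hs : 1 ≤ s) (hn : n + 1 = 27 * s) (x : ℚ_[2]) (g : Gp)
    (hg1 : g ≠ .z1) (hg2 : g ≠ .w1) (i : Fin (n + 1)) (k : ℕ) (hk : k < parA.ht g * s + c0)
    (j : Fin 8) (hj : j = 6 ∨ j = 7) (t : Polynomial ℚ_[2]) :
    ‖rowVal ℚ_[2] (n + 1) x g k (krow j (hF s i) t)‖ ≤
      64 * (34 + c0) * ((s : ℝ) + 1) * kb s i k g := by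
  have hs' : (1 : ℝ) ≤ s := by exact_mod_cast hs
  by_cases hg : Kgp g
  · have hD : nA s + nB s + nC s ≤ n + 1 := by rw [hn]; exact n_le s
    have h1 := norm_rowVal_herm_le (nA s) (nB s) (nC s) (n + 1) i hD i.2 x g hg k j hj t
    have hht : parA.ht g ≤ 32 := by
      cases g <;> simp [parA]
    have hk2 : (k : ℝ) + 2 ≤ (34 + c0) * ((s : ℝ) + 1) := by
      have h2 : k ≤ 32 * s + c0 := by
        have := Nat.mul_le_mul_right s hht
        omega
      have h3 : (k : ℝ) ≤ 32 * s + c0 := by exact_mod_cast h2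
      have hc0 : (0 : ℝ) ≤ c0 := Nat.cast_nonneg _
      nlinarith
    have h4 : (2 : ℝ) ^ EW (n + 1) (nA s) (nB s) (nC s) i g.cusp * 4 ^ k ≤ 4 * kb s i k g := by
      rw [zpow_mul_four]
      have hpos : ∀ a : ℝ, (0 : ℝ) ≤ (2 : ℝ) ^ a := fun a => Real.rpow_nonneg (by norm_num) a
      have e0 : ∀ c : Fin 4, c ≠ 3 → ((EW (n + 1) (nA s) (nB s) (nC s) i c : ℤ) : ℝ) =
          ap s i + wc s c := by
        intro c hc
        unfold EW ap wc
        rw [if_neg hc]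
        push_cast
        ring
      have e3 : ((EW (n + 1) (nA s) (nB s) (nC s) i 3 : ℤ) : ℝ) =
          ap s i + wc s 3 - 54 * s + 2 := by
        unfold EW ap wc
        rw [if_pos rfl]
        have : ((n : ℝ) + 1) = 27 * s := by exact_mod_cast hn
        push_cast
        linarith
      have e4 : (4 : ℝ) = (2 : ℝ) ^ (2 : ℝ) := by norm_num
      have key3 : (2 : ℝ) ^ (((EW (n + 1) (nA s) (nB s) (nC s) i 3 : ℤ) : ℝ) + 2 * k) ≤
          4 * (2 : ℝ) ^ (ap s i + wc s 3 - 54 * s + 2 * k) := by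
        rw [e3, e4, ← Real.rpow_add two_pos]
        exact le_of_eq (by ring_nf)
      cases g
      case z8 =>
        change (2 : ℝ) ^ (((EW (n + 1) (nA s) (nB s) (nC s) i 0 : ℤ) : ℝ) + 2 * k) ≤
          4 * (2 : ℝ) ^ (ap s i + wc s 0 + 2 * k)
        rw [e0 0 (by decide)]
        linarith [hpos (ap s i + wc s 0 + 2 * k)]
      case wy =>
        change (2 : ℝ) ^ (((EW (n + 1) (nA s) (nB s) (nC s) i 1 : ℤ) : ℝ) + 2 * k) ≤
          4 * (2 : ℝ) ^ (ap s i + wc s 1 + 2 * k)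
        rw [e0 1 (by decide)]
        linarith [hpos (ap s i + wc s 1 + 2 * k)]
      case w8 =>
        change (2 : ℝ) ^ (((EW (n + 1) (nA s) (nB s) (nC s) i 1 : ℤ) : ℝ) + 2 * k) ≤
          4 * (2 : ℝ) ^ (ap s i + wc s 1 + 2 * k)
        rw [e0 1 (by decide)]
        linarith [hpos (ap s i + wc s 1 + 2 * k)]
      case v8 =>
        change (2 : ℝ) ^ (((EW (n + 1) (nA s) (nB s) (nC s) i 2 : ℤ) : ℝ) + 2 * k) ≤
          4 * (2 : ℝ) ^ (ap s i + wc s 2 + 2 * k)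
        rw [e0 2 (by decide)]
        linarith [hpos (ap s i + wc s 2 + 2 * k)]
      case x2 => exact key3
      case xl => exact key3
      case x1 => exact key3
      all_goals exact absurd hg id
    have h5 : 0 ≤ (16 : ℝ) * ((k : ℝ) + 2) := by positivity
    calc _ ≤ (2 : ℝ) ^ EW (n + 1) (nA s) (nB s) (nC s) i g.cusp * (16 * ((k : ℝ) + 2)) * 4 ^ k :=
          h1
      _ = (16 * ((k : ℝ) + 2)) * ((2 : ℝ) ^ EW (n + 1) (nA s) (nB s) (nC s) i g.cusp * 4 ^ k) := by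
          ring
      _ ≤ (16 * ((34 + c0) * ((s : ℝ) + 1))) * (4 * kb s i k g) := by
          refine mul_le_mul (by linarith) h4 (by positivity) (by positivity)
      _ = _ := by ring
  · rw [rowVal_krow_eq_zero (n + 1) x g hg hg1 hg2 k j hj, norm_zero]
    have := kb_nonneg s i k g
    positivity

/-- **`KRowIn` from the entries at `z1` and `w1`** -/
theorem KRowIn_of (c0 : ℕ) (h : KZW c0) : KRowIn c0 := by
  intro x
  obtain ⟨C, m, hC, H⟩ := h x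
  refine ⟨C + 64 * (34 + c0), m + 1, by positivity, fun s hs n hn => ?_⟩
  obtain ⟨tF, tT, H2⟩ := H s hs n hn
  refine ⟨tF, tT, fun i g k hk => ?_⟩
  have hs' : (0 : ℝ) ≤ s := Nat.cast_nonneg s
  have h1 : (1 : ℝ) ≤ (s : ℝ) + 1 := by linarith
  have hkb := kb_nonneg s i k g
  have hp : (1 : ℝ) ≤ ((s : ℝ) + 1) ^ m := one_le_pow₀ h1
  have up1 : ∀ v : ℝ, v ≤ C * ((s : ℝ) + 1) ^ m * kb s i k g →
      v ≤ (C + 64 * (34 + c0)) * ((s : ℝ) + 1) ^ (m + 1) * kb s i k g := by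
    intro v hv
    refine hv.trans (mul_le_mul_of_nonneg_right ?_ hkb)
    refine mul_le_mul ?_ (pow_le_pow_right₀ h1 (Nat.le_succ m)) (by positivity) (by positivity)
    have : (0 : ℝ) ≤ 64 * (34 + (c0 : ℝ)) := by positivity
    linarith
  have up2 : ∀ v : ℝ, v ≤ 64 * (34 + c0) * ((s : ℝ) + 1) * kb s i k g →
      v ≤ (C + 64 * (34 + c0)) * ((s : ℝ) + 1) ^ (m + 1) * kb s i k g := by
    intro v hv
    refine hv.trans (mul_le_mul_of_nonneg_right ?_ hkb)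
    rw [pow_succ]
    calc 64 * (34 + (c0 : ℝ)) * ((s : ℝ) + 1) = 64 * (34 + (c0 : ℝ)) * (1 * ((s : ℝ) + 1)) := by
          ring
      _ ≤ (C + 64 * (34 + c0)) * (((s : ℝ) + 1) ^ m * ((s : ℝ) + 1)) := by
          refine mul_le_mul (by linarith) (mul_le_mul_of_nonneg_right hp (by linarith))
            (by positivity) (by positivity)
  by_cases hg1 : g = .z1
  · subst hg1
    obtain ⟨a, b⟩ := (H2 i k).1 hk
    exact ⟨up1 _ a, up1 _ b⟩
  · by_cases hg2 : g = .w1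
    · subst hg2
      obtain ⟨a, b⟩ := (H2 i k).2 hk
      exact ⟨up1 _ a, up1 _ b⟩
    · exact ⟨up2 _ (easy_bound c0 s n hs hn _ g hg1 hg2 i k hk 6 (Or.inl rfl) (tF i)),
        up2 _ (easy_bound c0 s n hs hn _ g hg1 hg2 i k hk 7 (Or.inr rfl) (tT i))⟩

end Vale.Agent.P030.H869
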