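import Vale.Agent.P030.T.Frame
import Vale.Agent.P030.H914.Trop

/-!
# P030, the row change over the literal frame T

A polynomial `h` in `S = 1/(1-u)` of degree `< D` has the value `evP D c h` in the local parameter
of the cusp `c` (times `t^(D-1)` at `c3`); `mon D c i` is the value of `(S-1)^i S^(D-1-i)`.
A row is an 8-tuple of polynomials in `S`; `rowVal` is its value on a column.  For a family of
rows which is triangular for some order of the eight functions, the determinant of the values is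
the product of the diagonal block determinants times a sign times the determinant of the frame.
-/

open PowerSeries

namespace Vale.Agent.P030.H869

open Vale.Agent.P030.T

section general

variable (K : Type*) [Field K] [Algebra ℚ K]

/-- numerator of `S` at the cusps -/
noncomputable def SN (c : Fin 4) : K⟦X⟧ :=
  match c with
  | 0 => mk fun _ => 1
  | 1 => C (1 / 2) * (1 - X)
  | 2 => -(X * mk fun _ => 1)
  | 3 => -(C (1 / 2) * (1 - X))

/-- denominator of `S` at the cusps -/
noncomputable def SD (c : Fin 4) : K⟦X⟧ :=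
  match c with
  | 0 => 1
  | 1 => 1
  | 2 => 1
  | 3 => X

/-- numerator of `S - 1` at the cusps -/
noncomputable def SM (c : Fin 4) : K⟦X⟧ :=
  match c with
  | 0 => X * mk fun _ => 1
  | 1 => -(C (1 / 2) * (1 + X))
  | 2 => -mk fun _ => 1
  | 3 => -(C (1 / 2) * (1 + X))

omit [Algebra ℚ K] in
theorem geoK_mul : (mk fun _ => (1 : K) : K⟦X⟧) * (1 - X) = 1 :=
  PowerSeries.mk_one_mul_one_sub_eq_one K

theorem C_half_add : (C (1 / 2 : K) : K⟦X⟧) + C (1 / 2) = 1 := by
  have : CharZero K := algebraRat.charZero K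
  rw [← map_add, add_halves, map_one]

theorem SM_eq (c : Fin 4) : SM K c = SN K c - SD K c := by
  have h1 := geoK_mul K
  have h2 := C_half_add K
  fin_cases c
  · change X * mk (fun _ => (1 : K)) = mk (fun _ => (1 : K)) - 1
    linear_combination (-1 : K⟦X⟧) * h1
  · change -(C (1 / 2 : K) * (1 + X)) = C (1 / 2) * (1 - X) - 1
    linear_combination (-1 : K⟦X⟧) * h2
  · change -mk (fun _ => (1 : K)) = -(X * mk fun _ => (1 : K)) - 1
    linear_combination (-1 : K⟦X⟧) * h1
  · change -(C (1 / 2 : K) * (1 + X)) = -(C (1 / 2) * (1 - X)) - X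
    linear_combination (-X : K⟦X⟧) * h2

theorem map_mon (D : ℕ) (c : Fin 4) (i : ℕ) (hi : i < D) :
    (mon D c i).map (algebraMap ℚ K) = SM K c ^ i * SN K c ^ (D - 1 - i) := by
  have hD : i + (D - 1 - i) = D - 1 := by omega
  have hg : (geo).map (algebraMap ℚ K) = (mk fun _ => (1 : K)) := by
    ext n; simp [geo]
  have hh : ∀ q : ℚ, (algebraMap ℚ K q : K) = (q : K) := fun q => eq_ratCast _ _
  fin_cases c
  · change (X ^ i * geo ^ (D - 1)).map (algebraMap ℚ K) =
      (X * mk fun _ => (1 : K)) ^ i * (mk fun _ => (1 : K)) ^ (D - 1 - i)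
    rw [map_mul, map_pow, map_pow, hg, PowerSeries.map_X, mul_pow, mul_assoc, ← pow_add, hD]
  · change (sc ((-1) ^ i / 2 ^ (D - 1)) ((1 + X) ^ i * (1 - X) ^ (D - 1 - i))).map
      (algebraMap ℚ K) = (-(C (1 / 2) * (1 + X))) ^ i * (C (1 / 2) * (1 - X)) ^ (D - 1 - i)
    have e : (C ((-1) ^ i / 2 ^ (D - 1) : K) : K⟦X⟧) =
        (-C (1 / 2)) ^ i * (C (1 / 2)) ^ (D - 1 - i) := by
      rw [← map_neg, ← map_pow, ← map_pow, ← map_mul]
      congr 1
      conv_lhs => rw [← hD, pow_add]
      rw [div_eq_mul_inv, mul_inv, neg_pow (1 / 2 : K), one_div, inv_pow, inv_pow]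
      ring
    unfold sc
    rw [map_mul, map_mul, map_pow, map_pow, map_add, map_sub, PowerSeries.map_X, map_one,
      PowerSeries.map_C, map_div₀, map_pow, map_pow, map_neg, map_one, map_ofNat, e]
    rw [← neg_mul, mul_pow, mul_pow]
    ring
  · change (sc ((-1) ^ (D - 1)) (X ^ (D - 1 - i) * geo ^ (D - 1))).map (algebraMap ℚ K) =
      (-mk fun _ => (1 : K)) ^ i * (-(X * mk fun _ => (1 : K))) ^ (D - 1 - i)
    unfold sc
    have e0 : (geo ^ (D - 1)).map (algebraMap ℚ K) = (mk fun _ => (1 : K)) ^ (D - 1) := by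
      rw [map_pow, hg]
    have e3 : (X ^ (D - 1 - i) : ℚ⟦X⟧).map (algebraMap ℚ K) = X ^ (D - 1 - i) := by
      rw [map_pow, PowerSeries.map_X]
    have e4 : (C ((-1) ^ (D - 1)) : ℚ⟦X⟧).map (algebraMap ℚ K) = (-1) ^ (D - 1) := by
      rw [PowerSeries.map_C, map_pow, map_neg, map_one, map_pow, map_neg, map_one]
    rw [map_mul, map_mul, e0, e3, e4, neg_pow, neg_pow (X * _), mul_pow]
    have e1 : ((-1 : K⟦X⟧)) ^ (D - 1) = (-1) ^ i * (-1) ^ (D - 1 - i) := by rw [← pow_add, hD]
    have e2 : (mk fun _ => (1 : K) : K⟦X⟧) ^ (D - 1) = (mk fun _ => (1 : K)) ^ i *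
        (mk fun _ => (1 : K)) ^ (D - 1 - i) := by rw [← pow_add, hD]
    rw [e1, e2]
    ring
  · change (sc (1 / (-2) ^ (D - 1)) ((1 + X) ^ i * (1 - X) ^ (D - 1 - i))).map
      (algebraMap ℚ K) = (-(C (1 / 2) * (1 + X))) ^ i * (-(C (1 / 2) * (1 - X))) ^ (D - 1 - i)
    have e : (C (1 / (-2) ^ (D - 1) : K) : K⟦X⟧) =
        (-C (1 / 2)) ^ i * (-C (1 / 2)) ^ (D - 1 - i) := by
      rw [← map_neg, ← map_pow, ← map_pow, ← map_mul]
      congr 1
      rw [← pow_add, hD, one_div, one_div, ← inv_pow, inv_neg]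
    unfold sc
    rw [map_mul, map_mul, map_pow, map_pow, map_add, map_sub, PowerSeries.map_X, map_one,
      PowerSeries.map_C, map_div₀, map_one, map_pow, map_neg, map_ofNat, e]
    rw [← neg_mul, ← neg_mul, mul_pow, mul_pow]
    ring

/-- value of the polynomial `h(S)`, `deg h < D`, at the cusp `c` (times `t^(D-1)` at `c3`) -/
noncomputable def evP (D : ℕ) (c : Fin 4) (h : Polynomial K) : K⟦X⟧ :=
  ∑ a ∈ Finset.range D, C (h.coeff a) * (SN K c ^ a * SD K c ^ (D - 1 - a))

/-- the base change between `S^a` and `(S-1)^m S^(D-1-m)` -/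
def Cb (D : ℕ) : Matrix (Fin D) (Fin D) K :=
  Matrix.of fun a m => (-1) ^ (m : ℕ) * ((Nat.choose (D - 1 - a) m : ℕ) : K)

theorem SN_pow_eq (D : ℕ) (c : Fin 4) (a : Fin D) :
    SN K c ^ (a : ℕ) * SD K c ^ (D - 1 - a) =
      ∑ m : Fin D, C (Cb K D a m) * (mon D c m).map (algebraMap ℚ K) := by
  have h1 : SD K c = -SM K c + SN K c := by rw [SM_eq]; ring
  have ha := a.2
  rw [h1, add_pow, Finset.mul_sum]
  have h2 : ∀ f : ℕ → K⟦X⟧, (∀ m, D - 1 - a < m → f m = 0) →
      ∑ m ∈ Finset.range (D - 1 - a + 1), f m = ∑ m ∈ Finset.range D, f m := by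
    intro f hf
    apply Finset.sum_subset
    · intro m hm
      simp only [Finset.mem_range] at hm ⊢
      omega
    · intro m _ hm
      apply hf
      simp only [Finset.mem_range, not_lt] at hm
      omega
  rw [h2, ← Fin.sum_univ_eq_sum_range (fun m => SN K c ^ (a : ℕ) * ((-SM K c) ^ m *
    SN K c ^ (D - 1 - a - m) * ((D - 1 - a).choose m : K⟦X⟧))) D]
  · refine Finset.sum_congr rfl fun m _ => ?_
    rw [map_mon K D c m m.2]
    simp only [Cb, Matrix.of_apply]
    rcases lt_or_ge (D - 1 - a : ℕ) m with hm | hm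
    · rw [Nat.choose_eq_zero_of_lt hm]
      simp
    · have e1 : SN K c ^ (D - 1 - (m : ℕ)) = SN K c ^ (a : ℕ) * SN K c ^ (D - 1 - a - m) := by
        rw [← pow_add]
        congr 1
        omega
      rw [e1, neg_pow]
      simp only [map_mul, map_pow, map_neg, map_one, map_natCast]
      ring
  · intro m hm
    rw [Nat.choose_eq_zero_of_lt hm]
    simp

theorem evP_eq (D : ℕ) (c : Fin 4) (h : Polynomial K) :
    evP K D c h = ∑ m : Fin D, C (∑ a : Fin D, h.coeff a * Cb K D a m) *
      (mon D c m).map (algebraMap ℚ K) := by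
  unfold evP
  rw [← Fin.sum_univ_eq_sum_range (fun a => C (h.coeff a) *
    (SN K c ^ a * SD K c ^ (D - 1 - a))) D]
  simp_rw [SN_pow_eq K D c, Finset.mul_sum, map_sum, Finset.sum_mul, map_mul]
  rw [Finset.sum_comm]
  refine Finset.sum_congr rfl fun m _ => Finset.sum_congr rfl fun a _ => ?_
  ring

/-- `Φ_{g,j}` over `K` -/
noncomputable def Tup (x : K) (g : Gp) (j : Fin 8) : K⟦X⟧ :=
  (tup0 g j).map (algebraMap ℚ K) + C x * (tup1 g j).map (algebraMap ℚ K)

/-- value of a row on the column `(g,k)` -/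
noncomputable def rowVal (D : ℕ) (x : K) (g : Gp) (k : ℕ) (P : Fin 8 → Polynomial K) : K :=
  ∑ j, coeff k (evP K D g.cusp (P j) * Tup K x g j)

theorem En_eq (D : ℕ) (x : K) (g : Gp) (k : ℕ) (i : Fin D) (j : Fin 8) :
    En D x (i, j) (g, k) = coeff k ((mon D g.cusp i).map (algebraMap ℚ K) * Tup K x g j) := by
  unfold En ent0 ent1 Tup
  simp only
  rw [mul_add, map_add, ← map_mul, PowerSeries.coeff_map]
  congr 1
  rw [mul_left_comm, PowerSeries.coeff_C_mul, ← map_mul, PowerSeries.coeff_map]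

theorem rowVal_eq (D : ℕ) (x : K) (g : Gp) (k : ℕ) (P : Fin 8 → Polynomial K) :
    rowVal K D x g k P =
      ∑ q : Fin D × Fin 8, (∑ a : Fin D, (P q.2).coeff a * Cb K D a q.1) * En D x q (g, k) := by
  unfold rowVal
  rw [Fintype.sum_prod_type, Finset.sum_comm]
  refine Finset.sum_congr rfl fun j _ => ?_
  rw [evP_eq, Finset.sum_mul, map_sum]
  refine Finset.sum_congr rfl fun i _ => ?_
  rw [En_eq, mul_assoc, PowerSeries.coeff_C_mul]

/-- coefficient matrix of a family of rows -/
def Cf {D : ℕ} (R : Fin D × Fin 8 → Fin 8 → Polynomial K) :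
    Matrix (Fin D × Fin 8) (Fin D × Fin 8) K :=
  Matrix.of fun r q => (R r q.2).coeff q.1

/-- the matrix of the values of a family of rows -/
noncomputable def VM {D : ℕ} (x : K) (R : Fin D × Fin 8 → Fin 8 → Polynomial K)
    (σ : Fin D × Fin 8 → Cl) : Matrix (Fin D × Fin 8) (Fin D × Fin 8) K :=
  Matrix.of fun r c => rowVal K D x (σ c).1 (σ c).2 (R r)

open scoped Kronecker in
theorem VM_eq {D : ℕ} (x : K) (R : Fin D × Fin 8 → Fin 8 → Polynomial K)
    (σ : Fin D × Fin 8 → Cl) :
    VM K x R σ = Cf K R * (Cb K D ⊗ₖ (1 : Matrix (Fin 8) (Fin 8) K)) * Mx D x σ := by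
  ext r c
  rw [Matrix.mul_apply]
  change rowVal K D x (σ c).1 (σ c).2 (R r) = _
  rw [rowVal_eq]
  refine Finset.sum_congr rfl fun q _ => ?_
  rw [Mx_apply]
  congr 1
  rw [Matrix.mul_apply, Fintype.sum_prod_type]
  refine Finset.sum_congr rfl fun a _ => ?_
  rw [Finset.sum_eq_single q.2]
  · obtain ⟨i, j⟩ := q
    simp [Cf, Matrix.kroneckerMap_apply]
  · intro b _ hb
    obtain ⟨i, j⟩ := q
    simp [Cf, Matrix.kroneckerMap_apply, Matrix.one_apply_ne hb]
  · simp

omit [Algebra ℚ K] in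
theorem det_Cb (D : ℕ) : (Cb K D).det = 1 ∨ (Cb K D).det = -1 := by
  have h1 := Matrix.det_permute (Fin.revPerm (n := D)) (Cb K D)
  have h2 : ((Cb K D).submatrix (Fin.revPerm (n := D)) id).det =
      ∏ m : Fin D, (-1 : K) ^ (m : ℕ) := by
    rw [Matrix.det_of_isLowerTriangular]
    · refine Finset.prod_congr rfl fun m _ => ?_
      have hm := m.2
      have e : D - 1 - (D - ((m : ℕ) + 1)) = m := by omega
      simp [Cb, Fin.revPerm, Fin.val_rev, e]
    · intro a m ham
      have hm := m.2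
      have ha := a.2
      have ham' : a < m := ham
      have e : D - 1 - (D - ((a : ℕ) + 1)) = a := by omega
      have : (a : ℕ) < m := ham'
      simp [Cb, Fin.revPerm, Fin.val_rev, e, Nat.choose_eq_zero_of_lt this]
  rw [h2] at h1
  have h3 : (∏ m : Fin D, (-1 : K) ^ (m : ℕ)) = 1 ∨ (∏ m : Fin D, (-1 : K) ^ (m : ℕ)) = -1 := by
    rw [Finset.prod_pow_eq_pow_sum]
    exact neg_one_pow_eq_or K _
  rcases Int.units_eq_one_or (Equiv.Perm.sign (Fin.revPerm (n := D))) with hs | hs <;>
    rw [hs] at h1 <;> rcases h3 with h3 | h3 <;> rw [h3] at h1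
  · left; simpa using h1.symm
  · right; simpa using h1.symm
  · right
    have : (1 : K) = -(Cb K D).det := by simpa using h1
    rw [this]; ring
  · left
    have : (-1 : K) = -(Cb K D).det := by simpa using h1
    exact (neg_injective this).symm

/-- diagonal blocks -/
def blk {D : ℕ} (R : Fin D × Fin 8 → Fin 8 → Polynomial K) (j : Fin 8) :
    Matrix (Fin D) (Fin D) K :=
  Matrix.of fun i a => (R (i, j) j).coeff a

omit [Algebra ℚ K] in
/-- the rows of a triangular family -/
theorem det_Cf {D : ℕ} (R : Fin D × Fin 8 → Fin 8 → Polynomial K) (π : Equiv.Perm (Fin 8))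
    (h : ∀ r j, π j < π r.2 → R r j = 0) : (Cf K R).det = ∏ j, (blk K R j).det := by
  have hb : Matrix.BlockTriangular (Cf K R) (fun r => π r.2) := by
    intro r q hq
    simp only [Cf, Matrix.of_apply]
    rw [h r q.2 hq]
    simp
  rw [hb.det_fintype, ← Equiv.prod_comp π]
  refine Finset.prod_congr rfl fun j _ => ?_
  let e : Fin D ≃ {a : Fin D × Fin 8 // π a.2 = π j} :=
    { toFun := fun i => ⟨(i, j), rfl⟩
      invFun := fun a => a.1.1
      left_inv := fun i => rfl
      right_inv := fun a => by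
        obtain ⟨⟨i, j'⟩, ha⟩ := a
        have : j' = j := π.injective ha
        subst this
        rfl }
  rw [← Matrix.det_submatrix_equiv_self e]
  rfl

open scoped Kronecker in
/-- **the row change**: up to a sign the determinant of the values of a triangular family of rows
is the product of the block determinants times the determinant of the frame -/
theorem det_VM {D : ℕ} (x : K) (R : Fin D × Fin 8 → Fin 8 → Polynomial K)
    (π : Equiv.Perm (Fin 8)) (h : ∀ r j, π j < π r.2 → R r j = 0) (σ : Fin D × Fin 8 → Cl) :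
    (VM K x R σ).det = (∏ j, (blk K R j).det) * (Mx D x σ).det := by
  rw [VM_eq, Matrix.det_mul, Matrix.det_mul, det_Cf K R π h, Matrix.det_kronecker]
  have h8 : (Cb K D).det ^ Fintype.card (Fin 8) = 1 := by
    rcases det_Cb K D with h1 | h1 <;> rw [h1]
    · simp
    · rw [Fintype.card_fin]
      norm_num
  rw [h8]
  simp

end general

end Vale.Agent.P030.H869
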